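import Vale.Agent.P097.H103.T.LatAl
import Vale.Agent.P097.H509.St.Defs

/-!
# P097 / block (T), straight line, ST-5: absolute bounds of the lines at all points of the
quadrant above an apex `(y₀, x₀)` all of whose windows `h ≥ r` are mid-level (hypothesis `hA` of
`H146.td_core`, drift along the axis)
-/

set_option linter.all false

open Complex Metric Filter Topology Set

namespace Vale.Agent.P097.H103.St

open Vale.Agent.P097.TC Vale.Agent.P097.H226.W Vale.Agent.P097.H845.St Vale.Agent.P097.H509.St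
open Vale.Agent.P097.H103.T

theorem tr_ax (y x h : ℝ) : tr y x (ax h) = pt y x h := by
  simp only [tr, ax, pt, sub_eq_add_neg]

/-- the half size chart -/
noncomputable def hf (z : ℂ × ℂ) : ℂ × ℂ := (z.1 / 2, z.2 / 2)

theorem hf_ax (h : ℝ) : hf (ax (2 * h)) = ax h := by
  simp only [hf, ax]
  push_cast
  refine Prod.ext ?_ ?_ <;> simp <;> ring

theorem hf_im1 (z : ℂ × ℂ) : (hf z).1.im = z.1.im / 2 := by
  have : z.1 / 2 = z.1 / ((2 : ℝ) : ℂ) := by norm_num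
  simp only [hf]
  rw [this, Complex.div_ofReal_im]

theorem hf_im2 (z : ℂ × ℂ) : (hf z).2.im = z.2.im / 2 := by
  have : z.2 / 2 = z.2 / ((2 : ℝ) : ℂ) := by norm_num
  simp only [hf]
  rw [this, Complex.div_ofReal_im]

theorem hf_re1 (z : ℂ × ℂ) : (hf z).1.re = z.1.re / 2 := by
  have : z.1 / 2 = z.1 / ((2 : ℝ) : ℂ) := by norm_num
  simp only [hf]
  rw [this, Complex.div_ofReal_re]

theorem hf_re2 (z : ℂ × ℂ) : (hf z).2.re = z.2.re / 2 := by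
  have : z.2 / 2 = z.2 / ((2 : ℝ) : ℂ) := by norm_num
  simp only [hf]
  rw [this, Complex.div_ofReal_re]

theorem hf_dbl (z : ℂ × ℂ) : hf ((2 : ℂ) • z) = z := by
  refine Prod.ext ?_ ?_ <;> simp [hf]

theorem tr_im1 (y x : ℝ) (z : ℂ × ℂ) : (tr y x z).1.im = z.1.im := by simp [tr]
theorem tr_im2 (y x : ℝ) (z : ℂ × ℂ) : (tr y x z).2.im = z.2.im := by simp [tr]
theorem tr_re1 (y x : ℝ) (z : ℂ × ℂ) : (tr y x z).1.re = y + z.1.re := by simp [tr]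
theorem tr_re2 (y x : ℝ) (z : ℂ × ℂ) : (tr y x z).2.re = x + z.2.re := by simp [tr]

theorem diff_tr (y x : ℝ) : Differentiable ℂ (fun z : ℂ × ℂ => tr y x (hf z)) := by
  unfold tr hf
  fun_prop

theorem maps_tr {y x : ℝ} (hy : |y| ≤ 1 / 2) (hx : |x| ≤ 1 / 2) {z : ℂ × ℂ}
    (hz : z ∈ Bx 1 ∩ Qu) : tr y x (hf z) ∈ Bx 1 ∩ Qu := by
  obtain ⟨⟨h1, h2, h3, h4⟩, h5, h6⟩ := hz
  obtain ⟨a1, a2⟩ := abs_lt.1 h1
  obtain ⟨b1, b2⟩ := abs_lt.1 h2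
  obtain ⟨c1, c2⟩ := abs_lt.1 h3
  obtain ⟨d1, d2⟩ := abs_lt.1 h4
  obtain ⟨e1, e2⟩ := abs_le.1 hy
  obtain ⟨f1, f2⟩ := abs_le.1 hx
  refine ⟨⟨?_, ?_, ?_, ?_⟩, ?_, ?_⟩
  · rw [tr_re1, hf_re1]; exact abs_lt.2 ⟨by linarith, by linarith⟩
  · rw [tr_im1, hf_im1]; exact abs_lt.2 ⟨by linarith, by linarith⟩
  · rw [tr_re2, hf_re2]; exact abs_lt.2 ⟨by linarith, by linarith⟩
  · rw [tr_im2, hf_im2]; exact abs_lt.2 ⟨by linarith, by linarith⟩
  · rw [tr_im1, hf_im1]; linarith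
  · rw [tr_im2, hf_im2]; linarith

variable {Λ b : ℝ} {F q : ℂ → ℂ} {al p th : ℂ × ℂ → ℂ}

/-- the recentred world at half size -/
theorem sq_tr (W : SQ Λ b F q 1 al p th) {y x : ℝ} (hy : |y| ≤ 1 / 2) (hx : |x| ≤ 1 / 2) :
    SQ Λ b F q 1 (fun z => al (tr y x (hf z))) (fun z => p (tr y x (hf z)))
      (fun z => th (tr y x (hf z))) where
  cv := W.cv
  gr := W.gr
  dal := W.dal.comp (diff_tr y x).differentiableOn fun z hz => maps_tr hy hx hz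
  dp := W.dp.comp (diff_tr y x).differentiableOn fun z hz => maps_tr hy hx hz
  dth := W.dth.comp (diff_tr y x).differentiableOn fun z hz => maps_tr hy hx hz
  mem z hz := W.mem _ (maps_tr hy hx hz)
  inc z hz := W.inc _ (maps_tr hy hx hz)
  smp z hz := W.smp _ (maps_tr hy hx hz)

/-- mid-level windows at half size -/
theorem mv_tr {X om e V y x h : ℝ} (hM : MV b F al th X om e V y x h) :
    Md b F (fun z => th (tr y x (hf z))) X om e (2 * h) ∧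
      |Vq F (fun z => al (tr y x (hf z))) (fun z => th (tr y x (hf z))) (2 * h)| ≤ V := by
  obtain ⟨⟨β, b1, b2, b3, b4, b5⟩, hV⟩ := hM
  constructor
  · refine ⟨(2 : ℂ) • β, ?_, ?_, ?_, ?_, ?_⟩
    · have : ((2 : ℂ) • β).1.im = 2 * β.1.im := by simp
      rw [this]; linarith
    · have : ((2 : ℂ) • β).2.im = 2 * β.2.im := by simp
      rw [this]; linarith
    · rw [norm_smul]
      simp only [Complex.norm_ofNat]
      linarith
    · simp only [hf_dbl]; exact b4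
    · simp only [hf_dbl]; exact b5
  · simp only [Vq, gg, hf_ax] at hV ⊢
    exact hV

/-- **`lat_al` at an apex `(y, x)` of the unit world** -/
theorem lat_tr (hL : H226.W.Lat) (hc : Cv Λ b F q) (hg : Grw b F q)
    (a : ℝ) (ha : 0 < a) (e X om V : ℝ) (he : 0 < e) (hX : 1 ≤ X) (hom : 0 < om) (hom1 : om ≤ 1)
    (hV : 0 ≤ V) :
    ∃ K : ℝ, 1 ≤ K ∧ ∃ N : ℝ, 1 ≤ N ∧ ∀ {al p th : ℂ × ℂ → ℂ}, SQ Λ b F q 1 al p th →
      ∀ y x : ℝ, |y| ≤ 1 / 2 → |x| ≤ 1 / 2 → ∀ h : ℝ, 0 < h → (X + 5) * h ≤ 1 / 2 →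
      MV b F al th X om e V y x h →
      ∀ ω : ℝ, 0 < ω → ω ≤ 1 → ∀ z : ℂ × ℂ, ω * h ≤ -z.1.im → ω * h ≤ z.2.im → ‖z‖ ≤ X * h →
        |(al (tr y x z)).im| ≤ K * ω⁻¹ ^ N * (1 + V) + Real.exp (K * ω⁻¹ ^ a) ∧
        ‖al (tr y x z) - al (pt y x h)‖ ≤ K * ω⁻¹ ^ N * (1 + V) + Real.exp (K * ω⁻¹ ^ a) ∧
        ‖p (tr y x z)‖ ≤ Real.exp (K * ω⁻¹ ^ N * (1 + V) + Real.exp (K * ω⁻¹ ^ a)) := by
  obtain ⟨K, hK, N, hN, hH⟩ := lat_al hL hc hg a ha e X om he hX hom hom1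
  refine ⟨K, hK, N, hN, fun {al p th} W y x hy hx h hh hXh hM ω hω hω1 z z1 z2 z3 => ?_⟩
  obtain ⟨m1, m2⟩ := mv_tr hM
  have q1 : ((2 : ℂ) • z).1.im = 2 * z.1.im := by simp
  have q2 : ((2 : ℂ) • z).2.im = 2 * z.2.im := by simp
  have hw := hH (sq_tr W hy hx) (2 * h) (by positivity) (by linarith) m1 ω hω hω1 ((2 : ℂ) • z)
    (by rw [q1]; linarith) (by rw [q2]; linarith)
    (by rw [norm_smul, Complex.norm_ofNat]; linarith)
  simp only [hf_dbl, hf_ax, tr_ax] at hw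
  have hi : 0 < ω⁻¹ := inv_pos.2 hω
  have hmono : K * ω⁻¹ ^ N * (1 + |Vq F (fun z => al (tr y x (hf z)))
      (fun z => th (tr y x (hf z))) (2 * h)|) + Real.exp (K * ω⁻¹ ^ a) ≤
      K * ω⁻¹ ^ N * (1 + V) + Real.exp (K * ω⁻¹ ^ a) := by
    have : 0 ≤ K * ω⁻¹ ^ N := by positivity
    gcongr
  obtain ⟨w1, w2, w3⟩ := hw
  exact ⟨w1.trans hmono, w2.trans hmono, w3.trans (Real.exp_le_exp.2 hmono)⟩

/-- drift along the axis: telescoping over octaves -/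
theorem drift {f : ℝ → ℂ} {D r T : ℝ} (hr : 0 < r) (hD : 0 ≤ D)
    (h : ∀ s t : ℝ, r ≤ s → s ≤ t → t ≤ 2 * s → t ≤ T → ‖f s - f t‖ ≤ D) :
    ∀ n : ℕ, ∀ t : ℝ, r ≤ t → t ≤ T → t ≤ 2 ^ n * r → ‖f r - f t‖ ≤ n * D := by
  intro n
  induction n with
  | zero =>
    intro t h1 h2 h3
    have : t = r := le_antisymm (by simpa using h3) h1
    rw [this]; simp
  | succ n ih =>
    intro t h1 h2 h3
    rcases le_or_gt t (2 ^ n * r) with h4 | h4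
    · have := ih t h1 h2 h4
      refine this.trans ?_
      push_cast
      linarith
    · have e1 : (1 : ℝ) ≤ 2 ^ n := one_le_pow₀ (by norm_num)
      have e2 : r ≤ 2 ^ n * r := by nlinarith
      have e3 := ih (2 ^ n * r) e2 (h4.le.trans h2) le_rfl
      have e4 := h (2 ^ n * r) t e2 h4.le (by rw [pow_succ] at h3; linarith) h2
      calc ‖f r - f t‖ ≤ ‖f r - f (2 ^ n * r)‖ + ‖f (2 ^ n * r) - f t‖ :=
            norm_sub_le_norm_sub_add_norm_sub _ _ _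
        _ ≤ n * D + D := add_le_add e3 e4
        _ = ((n + 1 : ℕ) : ℝ) * D := by push_cast; ring

/-- octave count -/
theorem octs {r t : ℝ} (hr : 0 < r) (ht : r ≤ t) :
    ∃ n : ℕ, t ≤ 2 ^ n * r ∧ (n : ℝ) ≤ 1 + 2 * Real.log (t / r) := by
  have h1 : 1 ≤ t / r := (one_le_div hr).2 ht
  have h0 : 0 < t / r := by positivity
  have hl2 : 1 / 2 < Real.log 2 := by have := Real.log_two_gt_d9; linarith
  have hlog : 0 ≤ Real.log (t / r) := Real.log_nonneg h1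
  obtain ⟨n, hn1, hn2⟩ : ∃ n : ℕ, Real.log (t / r) / Real.log 2 ≤ n ∧
      (n : ℝ) < Real.log (t / r) / Real.log 2 + 1 :=
    ⟨⌈Real.log (t / r) / Real.log 2⌉₊, Nat.le_ceil _, Nat.ceil_lt_add_one (by positivity)⟩
  refine ⟨n, ?_, ?_⟩
  · have h3 : Real.log (t / r) ≤ n * Real.log 2 := by
      rwa [div_le_iff₀ (by linarith)] at hn1
    have h4 : t / r ≤ 2 ^ n := by
      have h5 : (0 : ℝ) < 2 ^ n := by positivity
      have h6 : Real.log (t / r) ≤ Real.log (2 ^ n) := by rw [Real.log_pow]; exact h3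
      exact (Real.log_le_log_iff h0 h5).1 h6
    rwa [div_le_iff₀ hr] at h4
  · have h3 : Real.log (t / r) / Real.log 2 ≤ 2 * Real.log (t / r) := by
      rw [div_le_iff₀ (by linarith)]
      nlinarith
    linarith

theorem norm_pt_le (y x h : ℝ) (hh : 0 ≤ h) : ‖pt y x h‖ ≤ |y| + |x| + h := by
  have hx := abs_nonneg x
  have hy := abs_nonneg y
  rw [Prod.norm_def]
  refine max_le ?_ ?_
  · refine (norm_sub_le _ _).trans ?_
    rw [norm_mul, Complex.norm_I, mul_one, Complex.norm_real, Complex.norm_real,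
      Real.norm_eq_abs, Real.norm_eq_abs, abs_of_nonneg hh]
    linarith
  · refine (norm_add_le _ _).trans ?_
    rw [norm_mul, Complex.norm_I, mul_one, Complex.norm_real, Complex.norm_real,
      Real.norm_eq_abs, Real.norm_eq_abs, abs_of_nonneg hh]
    linarith

theorem pt_im1 (y x h : ℝ) : (pt y x h).1.im = -h := by simp [pt]
theorem pt_im2 (y x h : ℝ) : (pt y x h).2.im = h := by simp [pt]

/-- real arithmetic (1) -/
theorem ar1 {K V D P x : ℝ} (hK : 0 ≤ K) (hV : 0 ≤ V) (hD : 0 ≤ D) (hP : 0 ≤ P) (hx : 1 ≤ x) :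
    K * x * (1 + V) + D ≤ (K * (1 + V) + 2 * D + P) * x := by
  have h1 : D ≤ D * x := le_mul_of_one_le_right hD hx
  have h2 : 0 ≤ P * x := by positivity
  have h3 : 0 ≤ D * x := by positivity
  calc K * x * (1 + V) + D ≤ K * x * (1 + V) + D * x := by linarith
    _ ≤ K * x * (1 + V) + D * x + (D * x + P * x) := by linarith
    _ = (K * (1 + V) + 2 * D + P) * x := by ring

/-- real arithmetic (2) -/
theorem ar2 {K V D P x : ℝ} (hK : 0 ≤ K) (hV : 0 ≤ V) (hP : 0 ≤ P) (hx : 0 ≤ x) :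
    D * (2 * x) ≤ (K * (1 + V) + 2 * D + P) * x := by
  have h1 : 0 ≤ K * (1 + V) * x := by positivity
  have h2 : 0 ≤ P * x := by positivity
  calc D * (2 * x) ≤ D * (2 * x) + (K * (1 + V) * x + P * x) := by linarith
    _ = (K * (1 + V) + 2 * D + P) * x := by ring

/-- drift along the axis above an apex, from the per-window bound at `ω = 1/2` -/
theorem drift_st {f : ℝ → ℂ} {D r X T : ℝ} (hr : 0 < r) (hD : 0 ≤ D) (hX : 1 ≤ X)
    (hw : ∀ t : ℝ, r ≤ t → (X + 5) * t ≤ T → ∀ s : ℝ, t ≤ 2 * s → s ≤ t → ‖f s - f t‖ ≤ D)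
    {h : ℝ} (h1 : r ≤ h) (h2 : (X + 5) * h ≤ T) :
    ‖f r - f h‖ ≤ D * (1 + 2 * Real.log (h / r)) := by
  obtain ⟨n, hn1, hn2⟩ := octs hr h1
  have hst : ∀ s t : ℝ, r ≤ s → s ≤ t → t ≤ 2 * s → t ≤ h → ‖f s - f t‖ ≤ D := by
    intro s t s1 s2 s3 s4
    refine hw t (s1.trans s2) (le_trans ?_ h2) s s3 s2
    exact mul_le_mul_of_nonneg_left s4 (by linarith)
  refine (drift (f := f) (T := h) hr hD hst n h h1 le_rfl hn1).trans ?_
  rw [mul_comm]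
  exact mul_le_mul_of_nonneg_left hn2 hD

theorem ax_im1 (s : ℝ) : (ax s).1.im = -s := by simp [ax]
theorem ax_im2 (s : ℝ) : (ax s).2.im = s := by simp [ax]

/-- the absolute bounds from the per window bounds (pure real variables constants) -/
theorem abs_core {K N a V D₀ P₀ X T : ℝ} (hK : 1 ≤ K) (hN : 1 ≤ N) (hV : 0 ≤ V) (hX : 1 ≤ X)
    (hD₀ : K * ((1 / 2 : ℝ))⁻¹ ^ N * (1 + V) + Real.exp (K * ((1 / 2 : ℝ))⁻¹ ^ a) = D₀)
    (hP₀ : Real.exp (K * (1 : ℝ)⁻¹ ^ N * (1 + V) + Real.exp (K * (1 : ℝ)⁻¹ ^ a)) = P₀)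
    {al p : ℂ × ℂ → ℂ} {y₀ x₀ r : ℝ} (hr : 0 < r)
    (hH : ∀ h : ℝ, r ≤ h → (X + 5) * h ≤ T →
      ∀ ω : ℝ, 0 < ω → ω ≤ 1 → ∀ z : ℂ × ℂ, ω * h ≤ -z.1.im → ω * h ≤ z.2.im → ‖z‖ ≤ X * h →
        ‖al (tr y₀ x₀ z) - al (pt y₀ x₀ h)‖ ≤ K * ω⁻¹ ^ N * (1 + V) + Real.exp (K * ω⁻¹ ^ a) ∧
        ‖p (tr y₀ x₀ z)‖ ≤ Real.exp (K * ω⁻¹ ^ N * (1 + V) + Real.exp (K * ω⁻¹ ^ a))) :
    (∀ h : ℝ, r ≤ h → (X + 5) * h ≤ T →
        ‖al (pt y₀ x₀ h) - al (pt y₀ x₀ r)‖ ≤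
          (K * (1 + V) + 2 * D₀ + P₀) * (1 + Real.log (h / r)) ∧
        ‖p (pt y₀ x₀ h)‖ ≤ K * (1 + V) + 2 * D₀ + P₀) ∧
      ∀ y x h : ℝ, 0 < h → (X + 5) * (|y| + |x| + h + r) ≤ T →
        ‖al (tr y₀ x₀ (pt y x h)) - al (pt y₀ x₀ r)‖ ≤
          (K * (1 + V) + 2 * D₀ + P₀) * ((|y| + |x| + h + r) / h) ^ N +
            Real.exp ((K * (1 + V) + 2 * D₀ + P₀) * ((|y| + |x| + h + r) / h) ^ a) +
            (K * (1 + V) + 2 * D₀ + P₀) * Real.log ((|y| + |x| + h + r) / r) ∧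
        ‖p (tr y₀ x₀ (pt y x h))‖ ≤
          Real.exp ((K * (1 + V) + 2 * D₀ + P₀) * ((|y| + |x| + h + r) / h) ^ N +
            Real.exp ((K * (1 + V) + 2 * D₀ + P₀) * ((|y| + |x| + h + r) / h) ^ a)) := by
  have hK0 : 0 ≤ K := by linarith
  have hD0 : 0 ≤ D₀ := by rw [← hD₀]; positivity
  have hP0 : 0 ≤ P₀ := by rw [← hP₀]; positivity
  have hKC : K ≤ K * (1 + V) + 2 * D₀ + P₀ := by
    have : K ≤ K * (1 + V) := le_mul_of_one_le_right hK0 (by linarith)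
    linarith
  have hC0 : 0 ≤ K * (1 + V) + 2 * D₀ + P₀ := hK0.trans hKC
  have hdr : ∀ h : ℝ, r ≤ h → (X + 5) * h ≤ T →
      ‖al (pt y₀ x₀ r) - al (pt y₀ x₀ h)‖ ≤ D₀ * (1 + 2 * Real.log (h / r)) := by
    intro h h1 h2
    refine drift_st (f := fun s => al (pt y₀ x₀ s)) hr hD0 hX ?_ h1 h2
    intro t t1 t2 s s1 s2
    have ht : 0 < t := hr.trans_le t1
    have hs : 0 < s := by linarith
    have h3 := (hH t t1 t2 (1 / 2) (by norm_num) (by norm_num) (ax s)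
      (by rw [ax_im1]; linarith) (by rw [ax_im2]; linarith)
      (by
        rw [norm_ax hs.le]
        exact s2.trans (le_mul_of_one_le_left ht.le hX))).1
    rw [tr_ax, hD₀] at h3
    exact h3
  refine ⟨fun h h1 h2 => ⟨?_, ?_⟩, fun y x h hh hR => ?_⟩
  · have hlog : 0 ≤ Real.log (h / r) := Real.log_nonneg ((one_le_div hr).2 h1)
    rw [norm_sub_rev]
    refine (hdr h h1 h2).trans ?_
    have h3 := ar2 (K := K) (V := V) (D := D₀) (P := P₀) hK0 hV hP0 hlog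
    have h4 : D₀ ≤ K * (1 + V) + 2 * D₀ + P₀ := by
      have : 0 ≤ K * (1 + V) := by positivity
      linarith
    calc D₀ * (1 + 2 * Real.log (h / r)) = D₀ + D₀ * (2 * Real.log (h / r)) := by ring
      _ ≤ (K * (1 + V) + 2 * D₀ + P₀) + (K * (1 + V) + 2 * D₀ + P₀) * Real.log (h / r) :=
          add_le_add h4 h3
      _ = _ := by ring
  · have hh : 0 < h := hr.trans_le h1
    have h3 := (hH h h1 h2 1 one_pos le_rfl (ax h) (by rw [ax_im1]; linarith)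
      (by rw [ax_im2]; linarith)
      (by rw [norm_ax hh.le]; exact le_mul_of_one_le_left hh.le hX)).2
    rw [tr_ax, hP₀] at h3
    have : 0 ≤ K * (1 + V) := by positivity
    linarith
  · have hy0 := abs_nonneg y
    have hx0 := abs_nonneg x
    have hpt := norm_pt_le y x h hh.le
    obtain ⟨R, hRdef⟩ : ∃ R : ℝ, |y| + |x| + h + r = R := ⟨_, rfl⟩
    rw [hRdef] at hR ⊢
    have hR0 : 0 < R := by linarith
    have hhR : h ≤ R := by linarith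
    have hrR : r ≤ R := by linarith
    have hptR : ‖pt y x h‖ ≤ X * R := by
      refine hpt.trans (le_trans ?_ (le_mul_of_one_le_left hR0.le hX))
      linarith
    have hω : 0 < h / R := by positivity
    have hω1 : h / R ≤ 1 := (div_le_one hR0).2 hhR
    have hωR : h / R * R = h := by field_simp
    have hinv : (h / R)⁻¹ = R / h := by rw [inv_div]
    have hRh : 1 ≤ R / h := (one_le_div hh).2 hhR
    obtain ⟨w2, w3⟩ := hH R hrR hR (h / R) hω hω1 (pt y x h)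
      (by rw [hωR, pt_im1]; linarith) (by rw [hωR, pt_im2]) hptR
    rw [hinv] at w2 w3
    have hN1 : 1 ≤ (R / h) ^ N := Real.one_le_rpow hRh (by linarith)
    have ha1 : 0 ≤ (R / h) ^ a := by positivity
    have e1 : Real.exp (K * (R / h) ^ a) ≤
        Real.exp ((K * (1 + V) + 2 * D₀ + P₀) * (R / h) ^ a) :=
      Real.exp_le_exp.2 (mul_le_mul_of_nonneg_right hKC ha1)
    have e2 := ar1 (K := K) (V := V) (D := D₀) (P := P₀) hK0 hV hD0 hP0 hN1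
    have hlog : 0 ≤ Real.log (R / r) := Real.log_nonneg ((one_le_div hr).2 hrR)
    have e4 := ar2 (K := K) (V := V) (D := D₀) (P := P₀) hK0 hV hP0 hlog
    constructor
    · have e3 := hdr R hrR hR
      rw [norm_sub_rev] at e3
      calc ‖al (tr y₀ x₀ (pt y x h)) - al (pt y₀ x₀ r)‖
          ≤ ‖al (tr y₀ x₀ (pt y x h)) - al (pt y₀ x₀ R)‖ +
            ‖al (pt y₀ x₀ R) - al (pt y₀ x₀ r)‖ := norm_sub_le_norm_sub_add_norm_sub _ _ _
        _ ≤ (K * (R / h) ^ N * (1 + V) + Real.exp (K * (R / h) ^ a)) +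
            D₀ * (1 + 2 * Real.log (R / r)) := add_le_add w2 e3
        _ = (K * (R / h) ^ N * (1 + V) + D₀) + Real.exp (K * (R / h) ^ a) +
            D₀ * (2 * Real.log (R / r)) := by ring
        _ ≤ _ := add_le_add (add_le_add e2 e1) e4
    · refine w3.trans (Real.exp_le_exp.2 (add_le_add ?_ e1))
      linarith

/-- **absolute bounds above an apex all of whose windows `h ≥ r` are mid-level** -/
theorem abs_st (hL : H226.W.Lat) (hc : Cv Λ b F q) (hg : Grw b F q)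
    (a : ℝ) (ha : 0 < a) (e X om V : ℝ) (he : 0 < e) (hX : 1 ≤ X) (hom : 0 < om) (hom1 : om ≤ 1)
    (hV : 0 ≤ V) :
    ∃ C₁ : ℝ, 0 ≤ C₁ ∧ ∃ N : ℝ, 0 ≤ N ∧ ∀ {al p th : ℂ × ℂ → ℂ}, SQ Λ b F q 1 al p th →
      ∀ y₀ x₀ r : ℝ, |y₀| ≤ 1 / 2 → |x₀| ≤ 1 / 2 → 0 < r →
      (∀ h : ℝ, r ≤ h → (X + 5) * h ≤ 1 / 2 → MV b F al th X om e V y₀ x₀ h) →
      (∀ h : ℝ, r ≤ h → (X + 5) * h ≤ 1 / 2 →
        ‖al (pt y₀ x₀ h) - al (pt y₀ x₀ r)‖ ≤ C₁ * (1 + Real.log (h / r)) ∧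
        ‖p (pt y₀ x₀ h)‖ ≤ C₁) ∧
      ∀ y x h : ℝ, 0 < h → (X + 5) * (|y| + |x| + h + r) ≤ 1 / 2 →
        ‖al (tr y₀ x₀ (pt y x h)) - al (pt y₀ x₀ r)‖ ≤
          C₁ * ((|y| + |x| + h + r) / h) ^ N + Real.exp (C₁ * ((|y| + |x| + h + r) / h) ^ a) +
            C₁ * Real.log ((|y| + |x| + h + r) / r) ∧
        ‖p (tr y₀ x₀ (pt y x h))‖ ≤
          Real.exp (C₁ * ((|y| + |x| + h + r) / h) ^ N +
            Real.exp (C₁ * ((|y| + |x| + h + r) / h) ^ a)) := by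
  obtain ⟨K, hK, N, hN, hH⟩ := lat_tr hL hc hg a ha e X om V he hX hom hom1 hV
  obtain ⟨D₀, hD₀⟩ : ∃ D₀ : ℝ,
    K * ((1 / 2 : ℝ))⁻¹ ^ N * (1 + V) + Real.exp (K * ((1 / 2 : ℝ))⁻¹ ^ a) = D₀ := ⟨_, rfl⟩
  obtain ⟨P₀, hP₀⟩ : ∃ P₀ : ℝ,
    Real.exp (K * (1 : ℝ)⁻¹ ^ N * (1 + V) + Real.exp (K * (1 : ℝ)⁻¹ ^ a)) = P₀ := ⟨_, rfl⟩
  have hK0 : 0 ≤ K := by linarith
  refine ⟨K * (1 + V) + 2 * D₀ + P₀, ?_, N, by linarith,
    fun {al p th} W y₀ x₀ r hy hx hr hM => ?_⟩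
  · have hD0 : 0 ≤ D₀ := by rw [← hD₀]; positivity
    have hP0 : 0 ≤ P₀ := by rw [← hP₀]; positivity
    positivity
  · exact abs_core hK hN hV hX hD₀ hP₀ hr fun h h1 h2 ω w1 w2 z z1 z2 z3 =>
      (hH W y₀ x₀ hy hx h (hr.trans_le h1) h2 (hM h h1 h2) ω w1 w2 z z1 z2 z3).2


/-- pure real: from the two bounds of `abs_core` to one factor -/
theorem comb {C N a u l A P Q : ℝ} (hC : 0 ≤ C) (hN : 0 ≤ N) (ha : 0 < a) (hu : 1 ≤ u)
    (hl : 0 ≤ l) (hA : A ≤ C * u ^ N + Real.exp (C * u ^ a) + C * l)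
    (hP : P ≤ Real.exp (C * u ^ N + Real.exp (C * u ^ a))) (hQ : Q ≤ C) :
    A ≤ (1 + l) * Real.exp ((C + 1) * u ^ N + Real.exp ((C + 1) * u ^ a)) ∧
      P + Q ≤ (1 + l) * Real.exp ((C + 1) * u ^ N + Real.exp ((C + 1) * u ^ a)) := by
  have hN1 : 1 ≤ u ^ N := Real.one_le_rpow hu hN
  have ha1 : 1 ≤ u ^ a := Real.one_le_rpow hu ha.le
  have e0 : C ≤ C * u ^ N := le_mul_of_one_le_right hC hN1
  have e1 : Real.exp (C * u ^ a) ≤ Real.exp ((C + 1) * u ^ a) :=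
    Real.exp_le_exp.2 (mul_le_mul_of_nonneg_right (by linarith) (by linarith))
  have e2 : C * u ^ N + 1 + Real.exp (C * u ^ a) ≤
      (C + 1) * u ^ N + Real.exp ((C + 1) * u ^ a) := by
    have : (C + 1) * u ^ N = C * u ^ N + u ^ N := by ring
    linarith
  have hE0 : 0 ≤ Real.exp (C * u ^ a) := (Real.exp_pos _).le
  have hEE : 0 ≤ C * u ^ N := by positivity
  obtain ⟨Y, hY⟩ : ∃ Y : ℝ, (C + 1) * u ^ N + Real.exp ((C + 1) * u ^ a) = Y := ⟨_, rfl⟩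
  rw [hY] at e2 ⊢
  have e3 : Y + 1 ≤ Real.exp Y := Real.add_one_le_exp Y
  have e5 : C ≤ Real.exp Y := by linarith
  constructor
  · have e6 : C * l ≤ Real.exp Y * l := mul_le_mul_of_nonneg_right e5 hl
    calc A ≤ C * u ^ N + Real.exp (C * u ^ a) + C * l := hA
      _ ≤ Real.exp Y + Real.exp Y * l := add_le_add (by linarith) e6
      _ = (1 + l) * Real.exp Y := by ring
  · obtain ⟨y, hy⟩ : ∃ y : ℝ, C * u ^ N + Real.exp (C * u ^ a) = y := ⟨_, rfl⟩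
    rw [hy] at hP
    have e7 : y + 1 ≤ Y := by linarith
    have e8 : Real.exp 1 * Real.exp y ≤ Real.exp Y := by
      rw [← Real.exp_add]; exact Real.exp_le_exp.2 (by linarith)
    have e9 : (2 : ℝ) ≤ Real.exp 1 := by have := Real.add_one_le_exp (1 : ℝ); linarith
    have e10 : y + 1 ≤ Real.exp y := Real.add_one_le_exp y
    have e11 : C ≤ Real.exp y := by linarith
    have hey : 0 ≤ Real.exp y := (Real.exp_pos _).le
    have e12 : 2 * Real.exp y ≤ Real.exp 1 * Real.exp y := mul_le_mul_of_nonneg_right e9 hey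
    have hEY : 0 ≤ l * Real.exp Y := mul_nonneg hl (Real.exp_pos _).le
    calc P + Q ≤ Real.exp y + Real.exp y := add_le_add hP (hQ.trans e11)
      _ ≤ Real.exp Y := by linarith
      _ ≤ (1 + l) * Real.exp Y := by linarith

/-- **absolute bound of the line above an apex, one factor** (hypothesis hA of the sum) -/
theorem abs_LL (hL : H226.W.Lat) (hc : Cv Λ b F q) (hg : Grw b F q)
    (a : ℝ) (ha : 0 < a) (e X om V : ℝ) (he : 0 < e) (hX : 1 ≤ X) (hom : 0 < om) (hom1 : om ≤ 1)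
    (hV : 0 ≤ V) :
    ∃ C₁ : ℝ, 1 ≤ C₁ ∧ ∃ N : ℝ, 0 ≤ N ∧ ∀ {al p th : ℂ × ℂ → ℂ}, SQ Λ b F q 1 al p th →
      ∀ y₀ x₀ r : ℝ, |y₀| ≤ 1 / 2 → |x₀| ≤ 1 / 2 → 0 < r →
      (∀ h : ℝ, r ≤ h → (X + 5) * h ≤ 1 / 2 → MV b F al th X om e V y₀ x₀ h) →
      ∀ y x h : ℝ, 0 < h → (X + 5) * (|y| + |x| + h + r) ≤ 1 / 2 →
        ‖LL al p (tr y₀ x₀ (pt y x h)) - LL al p (pt y₀ x₀ r)‖ ≤
          (1 + Real.log ((|y| + |x| + h + r) / r)) *
            Real.exp (C₁ * ((|y| + |x| + h + r) / h) ^ N +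
              Real.exp (C₁ * ((|y| + |x| + h + r) / h) ^ a)) := by
  obtain ⟨C, hC, N, hN, hH⟩ := abs_st hL hc hg a ha e X om V he hX hom hom1 hV
  refine ⟨C + 1, by linarith, N, hN, fun {al p th} W y₀ x₀ r hy hx hr hM y x h hh hR => ?_⟩
  obtain ⟨h1, h2⟩ := hH W y₀ x₀ r hy hx hr hM
  obtain ⟨h3, h4⟩ := h2 y x h hh hR
  have hy0 := abs_nonneg y
  have hx0 := abs_nonneg x
  have hr2 : (X + 5) * r ≤ 1 / 2 :=
    le_trans (mul_le_mul_of_nonneg_left (by linarith) (by linarith)) hR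
  have h5 := (h1 r le_rfl hr2).2
  have hu : 1 ≤ (|y| + |x| + h + r) / h := (one_le_div hh).2 (by linarith)
  have hl : 0 ≤ Real.log ((|y| + |x| + h + r) / r) :=
    Real.log_nonneg ((one_le_div hr).2 (by linarith))
  obtain ⟨c1, c2⟩ := comb hC hN ha hu hl h3 h4 h5
  rw [Prod.norm_def]
  exact max_le c1 ((norm_sub_le _ _).trans c2)

/-- **centred form** (world of `TdC`): apex `(0, 0)`, range `(X + 5) h ≤ 1` -/
theorem abs_c (hL : H226.W.Lat) (hc : Cv Λ b F q) (hg : Grw b F q)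
    (a : ℝ) (ha : 0 < a) (e X om V : ℝ) (he : 0 < e) (hX : 1 ≤ X) (hom : 0 < om) (hom1 : om ≤ 1)
    (hV : 0 ≤ V) :
    ∃ C₁ : ℝ, 1 ≤ C₁ ∧ ∃ N : ℝ, 0 ≤ N ∧ ∀ {al p th : ℂ × ℂ → ℂ}, SQ Λ b F q 1 al p th →
      ∀ r : ℝ, 0 < r →
      (∀ h : ℝ, r ≤ h → (X + 5) * h ≤ 1 → Md b F th X om e h ∧ |Vq F al th h| ≤ V) →
      ∀ y x h : ℝ, 0 < h → (X + 5) * (|y| + |x| + h + r) ≤ 1 →
        ‖LL al p (pt y x h) - LL al p (pt 0 0 r)‖ ≤
          (1 + Real.log ((|y| + |x| + h + r) / r)) *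
            Real.exp (C₁ * ((|y| + |x| + h + r) / h) ^ N +
              Real.exp (C₁ * ((|y| + |x| + h + r) / h) ^ a)) := by
  obtain ⟨K, hK, N, hN, hH⟩ := lat_al hL hc hg a ha e X om he hX hom hom1
  obtain ⟨D₀, hD₀⟩ : ∃ D₀ : ℝ,
    K * ((1 / 2 : ℝ))⁻¹ ^ N * (1 + V) + Real.exp (K * ((1 / 2 : ℝ))⁻¹ ^ a) = D₀ := ⟨_, rfl⟩
  obtain ⟨P₀, hP₀⟩ : ∃ P₀ : ℝ,
    Real.exp (K * (1 : ℝ)⁻¹ ^ N * (1 + V) + Real.exp (K * (1 : ℝ)⁻¹ ^ a)) = P₀ := ⟨_, rfl⟩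
  have hK0 : 0 ≤ K := by linarith
  have hD0 : 0 ≤ D₀ := by rw [← hD₀]; positivity
  have hP0 : 0 ≤ P₀ := by rw [← hP₀]; positivity
  obtain ⟨C, hCd⟩ : ∃ C : ℝ, K * (1 + V) + 2 * D₀ + P₀ = C := ⟨_, rfl⟩
  have hC : 0 ≤ C := by rw [← hCd]; positivity
  refine ⟨C + 1, by linarith, N, by linarith, fun {al p th} W r hr hM y x h hh hR => ?_⟩
  have ht0 : ∀ z : ℂ × ℂ, tr 0 0 z = z := fun z => by simp [tr]
  have hax : ∀ t : ℝ, ax t = pt 0 0 t := fun t => by rw [← tr_ax, ht0]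
  have hcore := abs_core (T := 1) (al := al) (p := p) (y₀ := 0) (x₀ := 0) (a := a)
    hK hN hV hX hD₀ hP₀ hr
    (fun t t1 t2 ω w1 w2 z z1 z2 z3 => by
      obtain ⟨m1, m2⟩ := hM t t1 t2
      obtain ⟨-, v2, v3⟩ := hH W t (hr.trans_le t1) t2 m1 ω w1 w2 z z1 z2 z3
      have hmono : K * ω⁻¹ ^ N * (1 + |Vq F al th t|) + Real.exp (K * ω⁻¹ ^ a) ≤
          K * ω⁻¹ ^ N * (1 + V) + Real.exp (K * ω⁻¹ ^ a) := by
        have hi : 0 < ω⁻¹ := inv_pos.2 w1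
        have : 0 ≤ K * ω⁻¹ ^ N := by positivity
        gcongr
      rw [ht0, ← hax]
      exact ⟨v2.trans hmono, v3.trans (Real.exp_le_exp.2 hmono)⟩)
  rw [hCd] at hcore
  obtain ⟨h1, h2⟩ := hcore
  obtain ⟨h3, h4⟩ := h2 y x h hh hR
  rw [ht0] at h3 h4
  have hy0 := abs_nonneg y
  have hx0 := abs_nonneg x
  have hr2 : (X + 5) * r ≤ 1 :=
    le_trans (mul_le_mul_of_nonneg_left (by linarith) (by linarith)) hR
  have h5 := (h1 r le_rfl hr2).2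
  have hu : 1 ≤ (|y| + |x| + h + r) / h := (one_le_div hh).2 (by linarith)
  have hl : 0 ≤ Real.log ((|y| + |x| + h + r) / r) :=
    Real.log_nonneg ((one_le_div hr).2 (by linarith))
  obtain ⟨c1, c2⟩ := comb hC (by linarith) ha hu hl h3 h4 h5
  rw [Prod.norm_def]
  exact max_le c1 ((norm_sub_le _ _).trans c2)

end Vale.Agent.P097.H103.St
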