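import Vale.Agent.P097.H103.St.Abs

/-!
# P097 / block (T), straight line, ST-10: the line at the pick against the unit scale
(`A n` of `TdSt`, `|cA - 2 π M|`, `|cP|`), at one world
-/

set_option linter.all false

open Complex Metric Filter Topology Set

namespace Vale.Agent.P097.H103.St

open Vale.Agent.P097.TC Vale.Agent.P097.H226.W Vale.Agent.P097.H845.St Vale.Agent.P097.H509.St
open Vale.Agent.P097.H103.T

/-- the compact of unit scale points -/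
def Kh (h : ℝ) : Set (ℂ × ℂ) :=
  (fun v : ℝ × ℝ => pt v.1 v.2 h) '' (Icc (-(1 / 4)) (1 / 4) ×ˢ Icc (-(1 / 4)) (1 / 4))

theorem Kh_compact (h : ℝ) : IsCompact (Kh h) := by
  refine (isCompact_Icc.prod isCompact_Icc).image ?_
  unfold pt
  fun_prop

theorem mem_Kh {y x h : ℝ} (hy : |y| ≤ 1 / 4) (hx : |x| ≤ 1 / 4) : pt y x h ∈ Kh h :=
  ⟨(y, x), ⟨abs_le.1 hy, abs_le.1 hx⟩, rfl⟩

theorem pt_re1 (y x h : ℝ) : (pt y x h).1.re = y := by simp [pt]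
theorem pt_re2 (y x h : ℝ) : (pt y x h).2.re = x := by simp [pt]

theorem Kh_sub {h : ℝ} (h0 : 0 < h) (h1 : h < 1) : Kh h ⊆ Bx 1 ∩ Qu := by
  rintro _ ⟨⟨y, x⟩, ⟨hy, hx⟩, rfl⟩
  have hy' : |y| ≤ 1 / 4 := abs_le.2 hy
  have hx' : |x| ≤ 1 / 4 := abs_le.2 hx
  refine ⟨⟨?_, ?_, ?_, ?_⟩, ?_, ?_⟩
  · show |(pt y x h).1.re| < 1
    rw [pt_re1]; linarith
  · show |(pt y x h).1.im| < 1
    rw [pt_im1, abs_neg, abs_of_pos h0]; exact h1
  · show |(pt y x h).2.re| < 1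
    rw [pt_re2]; linarith
  · show |(pt y x h).2.im| < 1
    rw [pt_im2, abs_of_pos h0]; exact h1
  · show (pt y x h).1.im < 0
    rw [pt_im1]; linarith
  · show 0 < (pt y x h).2.im
    rw [pt_im2]; exact h0

variable {Λ b : ℝ} {F q : ℂ → ℂ}

/-- **the line at the pick against the unit scale, at one world** -/
theorem an_pick (hL : H226.W.Lat) (hc : Cv Λ b F q) (hg : Grw b F q)
    (e X om V : ℝ) (he : 0 < e) (hX : 1 ≤ X) (hom : 0 < om) (hom1 : om ≤ 1) (hV : 0 ≤ V) :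
    ∃ C : ℝ, 0 ≤ C ∧ ∃ K : Set (ℂ × ℂ), IsCompact K ∧ K ⊆ Bx 1 ∩ Qu ∧
      ∀ {al p th : ℂ × ℂ → ℂ}, SQ Λ b F q 1 al p th →
      ∀ y₀ x₀ r : ℝ, |y₀| ≤ 1 / 4 → |x₀| ≤ 1 / 4 → 0 < r → (X + 5) * r ≤ 1 / 2 →
      (∀ h : ℝ, r ≤ h → (X + 5) * h ≤ 1 / 2 → MV b F al th X om e V y₀ x₀ h) →
      (∀ M : ℝ, (∀ z ∈ K, ‖LL al p z‖ ≤ M) →
        ‖LL al p (pt y₀ x₀ r)‖ ≤ M + C * (1 + Real.log r⁻¹)) ∧
      (∃ k : ℤ, ‖al (pt y₀ x₀ r) - 2 * Real.pi * k‖ ≤ C) ∧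
      |(al (pt y₀ x₀ r)).im| ≤ C ∧ ‖p (pt y₀ x₀ r)‖ ≤ C := by
  obtain ⟨C₁, hC₁, N, hN, hH⟩ := abs_st hL hc hg 1 one_pos e X om V he hX hom hom1 hV
  obtain ⟨K₂, hK₂, N₂, hN₂, hH₂⟩ := lat_tr hL hc hg 1 one_pos e X om V he hX hom hom1 hV
  obtain ⟨C₂, hC₂⟩ : ∃ C₂ : ℝ,
    K₂ * (1 : ℝ)⁻¹ ^ N₂ * (1 + V) + Real.exp (K₂ * (1 : ℝ)⁻¹ ^ (1 : ℝ)) = C₂ := ⟨_, rfl⟩
  have hC₂0 : 0 ≤ C₂ := by
    have : 0 ≤ K₂ := by linarith
    rw [← hC₂]; positivity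
  have hpi := Real.pi_pos
  obtain ⟨h₁, hh₁⟩ : ∃ h₁ : ℝ, 1 / (2 * (X + 5)) = h₁ := ⟨_, rfl⟩
  have hX5 : 0 < X + 5 := by linarith
  have hh0 : 0 < h₁ := by rw [← hh₁]; positivity
  have hhX : (X + 5) * h₁ = 1 / 2 := by rw [← hh₁]; field_simp
  have hh1 : h₁ < 1 := by
    have : 6 * h₁ ≤ (X + 5) * h₁ := mul_le_mul_of_nonneg_right (by linarith) hh0.le
    linarith
  refine ⟨C₁ + C₂ + Real.pi, by positivity, Kh h₁, Kh_compact h₁, Kh_sub hh0 hh1,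
    fun {al p th} W y₀ x₀ r hy hx hr hXr hM => ?_⟩
  have hrh : r ≤ h₁ := by
    refine le_of_mul_le_mul_left ?_ hX5
    rw [hhX]; exact hXr
  obtain ⟨a1, -⟩ := hH W y₀ x₀ r (by linarith) (by linarith) hr hM
  obtain ⟨a2, -⟩ := a1 h₁ hrh hhX.le
  have a3 := (a1 r le_rfl hXr).2
  obtain ⟨b1, -, -⟩ := hH₂ W y₀ x₀ (by linarith) (by linarith) r hr hXr (hM r le_rfl hXr) 1
    one_pos le_rfl (ax r) (by rw [ax_im1]; linarith) (by rw [ax_im2]; linarith)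
    (by rw [norm_ax hr.le]; exact le_mul_of_one_le_left hr.le hX)
  rw [tr_ax, hC₂] at b1
  have hri : 0 ≤ Real.log r⁻¹ := Real.log_nonneg ((one_le_inv₀ hr).2 (by linarith))
  refine ⟨fun M hMK => ?_, ?_, by linarith, by linarith⟩
  · have hKm := hMK _ (mem_Kh (h := h₁) hy hx)
    have hM0 : 0 ≤ M := (norm_nonneg _).trans hKm
    have hal : ‖al (pt y₀ x₀ h₁)‖ ≤ M := (norm_fst_le (LL al p (pt y₀ x₀ h₁))).trans hKm
    have hlog : Real.log (h₁ / r) ≤ Real.log r⁻¹ := by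
      refine Real.log_le_log (by positivity) ?_
      rw [div_eq_mul_inv]
      exact mul_le_of_le_one_left (inv_pos.2 hr).le hh1.le
    have hCC : C₁ * (1 + Real.log (h₁ / r)) ≤ (C₁ + C₂ + Real.pi) * (1 + Real.log r⁻¹) := by
      calc C₁ * (1 + Real.log (h₁ / r)) ≤ C₁ * (1 + Real.log r⁻¹) :=
            mul_le_mul_of_nonneg_left (by linarith) hC₁
        _ ≤ (C₁ + C₂ + Real.pi) * (1 + Real.log r⁻¹) :=
            mul_le_mul_of_nonneg_right (by linarith) (by linarith)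
    have hC1 : C₁ ≤ (C₁ + C₂ + Real.pi) * (1 + Real.log r⁻¹) := by
      have h2 : C₁ + C₂ + Real.pi ≤ (C₁ + C₂ + Real.pi) * (1 + Real.log r⁻¹) :=
        le_mul_of_one_le_right (by positivity) (by linarith)
      linarith
    rw [Prod.norm_def]
    refine max_le ?_ ?_
    · show ‖al (pt y₀ x₀ r)‖ ≤ _
      have h3 : ‖al (pt y₀ x₀ r)‖ ≤ ‖al (pt y₀ x₀ h₁)‖ + ‖al (pt y₀ x₀ h₁) - al (pt y₀ x₀ r)‖ := by
        have := norm_sub_le (al (pt y₀ x₀ h₁)) (al (pt y₀ x₀ h₁) - al (pt y₀ x₀ r))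
        rwa [sub_sub_cancel] at this
      linarith
    · show ‖p (pt y₀ x₀ r)‖ ≤ _
      linarith
  · refine ⟨round ((al (pt y₀ x₀ r)).re / (2 * Real.pi)), ?_⟩
    have h1 := abs_sub_round ((al (pt y₀ x₀ r)).re / (2 * Real.pi))
    have h2 : |(al (pt y₀ x₀ r)).re - 2 * Real.pi *
        (round ((al (pt y₀ x₀ r)).re / (2 * Real.pi)) : ℝ)| ≤ Real.pi := by
      have h3 : (al (pt y₀ x₀ r)).re - 2 * Real.pi *
          (round ((al (pt y₀ x₀ r)).re / (2 * Real.pi)) : ℝ) =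
          2 * Real.pi * ((al (pt y₀ x₀ r)).re / (2 * Real.pi) -
            (round ((al (pt y₀ x₀ r)).re / (2 * Real.pi)) : ℝ)) := by
        field_simp
      rw [h3, abs_mul, abs_of_pos (by positivity)]
      have : 2 * Real.pi * |(al (pt y₀ x₀ r)).re / (2 * Real.pi) -
            (round ((al (pt y₀ x₀ r)).re / (2 * Real.pi)) : ℝ)| ≤ 2 * Real.pi * (1 / 2) :=
        mul_le_mul_of_nonneg_left h1 (by positivity)
      linarith
    refine (norm_le_abs_re_add_abs_im _).trans ?_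
    have h4 : (al (pt y₀ x₀ r) - 2 * (Real.pi : ℂ) *
        ((round ((al (pt y₀ x₀ r)).re / (2 * Real.pi)) : ℤ) : ℂ)).re =
        (al (pt y₀ x₀ r)).re - 2 * Real.pi *
          (round ((al (pt y₀ x₀ r)).re / (2 * Real.pi)) : ℝ) := by
      simp
    have h5 : (al (pt y₀ x₀ r) - 2 * (Real.pi : ℂ) *
        ((round ((al (pt y₀ x₀ r)).re / (2 * Real.pi)) : ℤ) : ℂ)).im =
        (al (pt y₀ x₀ r)).im := by
      simp
    rw [h4, h5]
    linarith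

/-- the number `A` of `TdSt` at one pick: `A = log (1 + 2 M + 2 C (1 + log r⁻¹))` -/
noncomputable def An (M C r : ℝ) : ℝ := Real.log (1 + 2 * M + 2 * C * (1 + Real.log r⁻¹))

theorem log_inv_le {r : ℝ} (hr : 0 < r) : r * Real.log r⁻¹ ≤ 2 * Real.sqrt r := by
  have hs : 0 < Real.sqrt r := Real.sqrt_pos.2 hr
  have h1 : Real.sqrt r * Real.sqrt r = r := Real.mul_self_sqrt hr.le
  have h2 : Real.log r⁻¹ = 2 * Real.log (Real.sqrt r)⁻¹ := by
    rw [Real.log_inv, Real.log_inv, Real.log_sqrt hr.le]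
    ring
  have h3 : Real.log (Real.sqrt r)⁻¹ ≤ (Real.sqrt r)⁻¹ := by
    have := Real.log_le_sub_one_of_pos (inv_pos.2 hs)
    linarith
  calc r * Real.log r⁻¹ = 2 * r * Real.log (Real.sqrt r)⁻¹ := by rw [h2]; ring
    _ ≤ 2 * r * (Real.sqrt r)⁻¹ := mul_le_mul_of_nonneg_left h3 (by positivity)
    _ = 2 * Real.sqrt r := by
        rw [← h1, Real.sqrt_mul_self hs.le]
        field_simp

theorem An_facts {M C r : ℝ} (hM : 0 ≤ M) (hC : 0 ≤ C) (hr : 0 < r) (hr1 : r ≤ 1) :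
    0 ≤ An M C r ∧ 2 * M + C * (1 + Real.log r⁻¹) ≤ Real.exp (An M C r) ∧
      r * An M C r ≤ r * Real.log (1 + 2 * M) + 2 * C * r + 2 * Real.sqrt r := by
  have hl : 0 ≤ Real.log r⁻¹ := Real.log_nonneg ((one_le_inv₀ hr).2 hr1)
  have hCl : 0 ≤ C * (1 + Real.log r⁻¹) := by positivity
  have hpos : 0 < 1 + 2 * M + 2 * C * (1 + Real.log r⁻¹) := by positivity
  refine ⟨Real.log_nonneg (by linarith), ?_, ?_⟩
  · rw [An, Real.exp_log hpos]; linarith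
  · have h1 : 1 + 2 * M + 2 * C * (1 + Real.log r⁻¹) ≤
        (1 + 2 * M) * ((1 + 2 * C) * (1 + Real.log r⁻¹)) := by
      have e1 : 0 ≤ M * Real.log r⁻¹ := by positivity
      have e2 : 0 ≤ M * (C * (1 + Real.log r⁻¹)) := by positivity
      linarith [show (1 + 2 * M) * ((1 + 2 * C) * (1 + Real.log r⁻¹)) =
        1 + 2 * M + 2 * C * (1 + Real.log r⁻¹) + Real.log r⁻¹ + 2 * (M * Real.log r⁻¹) +
          4 * (M * (C * (1 + Real.log r⁻¹))) by ring]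
    have h2 : An M C r ≤ Real.log (1 + 2 * M) + (2 * C + Real.log r⁻¹) := by
      have e3 : Real.log (1 + 2 * C) ≤ 2 * C := by
        have := Real.log_le_sub_one_of_pos (show 0 < 1 + 2 * C by linarith)
        linarith
      have e4 : Real.log (1 + Real.log r⁻¹) ≤ Real.log r⁻¹ := by
        have := Real.log_le_sub_one_of_pos (show 0 < 1 + Real.log r⁻¹ by linarith)
        linarith
      calc An M C r ≤ Real.log ((1 + 2 * M) * ((1 + 2 * C) * (1 + Real.log r⁻¹))) :=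
            Real.log_le_log hpos h1
        _ = Real.log (1 + 2 * M) + (Real.log (1 + 2 * C) + Real.log (1 + Real.log r⁻¹)) := by
            rw [Real.log_mul (by positivity) (by positivity),
              Real.log_mul (by positivity) (by positivity)]
        _ ≤ _ := by linarith
    have h3 := log_inv_le hr
    calc r * An M C r ≤ r * (Real.log (1 + 2 * M) + (2 * C + Real.log r⁻¹)) :=
          mul_le_mul_of_nonneg_left h2 hr.le
      _ = r * Real.log (1 + 2 * M) + 2 * C * r + r * Real.log r⁻¹ := by ring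
      _ ≤ _ := by linarith

/-- **the arc hypothesis of `TdSt` at one pick** -/
theorem arc_pick {al p : ℂ × ℂ → ℂ} {z₀ : ℂ × ℂ} {M C r : ℝ} {Z : Set (ℂ × ℂ)} (hM : 0 ≤ M)
    (hC : 0 ≤ C) (hr : 0 < r) (hr1 : r ≤ 1) (h0 : ‖LL al p z₀‖ ≤ M + C * (1 + Real.log r⁻¹))
    (hZ : ∀ z ∈ Z, ‖LL al p z‖ ≤ M) :
    ∀ z ∈ Z, ‖LL al p z - LL al p z₀‖ ≤ Real.exp (An M C r) := by
  intro z hz
  refine (norm_sub_le _ _).trans (le_trans ?_ (An_facts hM hC hr hr1).2.1)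
  linarith [hZ z hz]

end Vale.Agent.P097.H103.St
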